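import Vale.Agent.Lib.P080.Main

/-!
# P080: infinity-harmonic functions with (locally) convex level sets are `C¹`, in every dimension

The definitions `infLaplacian`, `InfSubharmonicOn`, `InfSuperharmonicOn`, `InfHarmonicOn`
are in `Vale/Agent/Lib/P080/Defs.lean`.
-/

namespace Vale.Agent.Results.P080.ConvexLevelSetsC1

open Vale.Agent.Lib.P080

/-- Let `u` be infinity-harmonic (viscosity sense) on an open set `Ω ⊆ ℝ^d`, `d` arbitrary, and
assume that every point of `Ω` has an open neighbourhood `U ⊆ Ω` on which `u` is quasiconvex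
(convex sublevel sets) or quasiconcave (convex superlevel sets).  Then `u` is `C¹` on `Ω`, and if
`Ω` is connected then either the gradient of `u` vanishes nowhere in `Ω` or `u` is constant. -/
theorem result (d : ℕ) (Ω : Set (EuclideanSpace ℝ (Fin d))) (hΩ : IsOpen Ω)
    (u : EuclideanSpace ℝ (Fin d) → ℝ) (hu : InfHarmonicOn u Ω)
    (hq : ∀ x ∈ Ω, ∃ U : Set (EuclideanSpace ℝ (Fin d)), IsOpen U ∧ x ∈ U ∧ U ⊆ Ω ∧
      (QuasiconvexOn ℝ U u ∨ QuasiconcaveOn ℝ U u)) :
    ContDiffOn ℝ 1 u Ω ∧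
      (IsPreconnected Ω → (∀ x ∈ Ω, fderiv ℝ u x ≠ 0) ∨ ∃ c, ∀ x ∈ Ω, u x = c) :=
  main_local hΩ hu hq

end Vale.Agent.Results.P080.ConvexLevelSetsC1
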